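import Vale.Agent.P201.Core

/-!
Consequences of the maximum principles for torsion-free groups.
-/

namespace Vale.Agent.P201

open Finset

universe u v w

/-- An abstract one-sided annihilation relation: `a` is a left factor (`left = true`) or a right
factor (`left = false`) of a vanishing product, the other factor being `b`. -/
def Ann {G : Type u} [Group G] {K : Type v} [Field K] (a b : G →₀ K) : Prop :=
  (∀ g, ∑ y ∈ a.support, a y * b (y⁻¹ * g) = 0) ∨ (∀ g, ∑ y ∈ a.support, a y * b (g * y⁻¹) = 0)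

variable {G : Type u} [Group G] {K : Type v} [Field K]

lemma ann_left {α β : MonoidAlgebra K G} (h : α * β = 0) : Ann α.coeff β.coeff := by
  left
  intro g
  have h1 := MonoidAlgebra.coeff_mul_apply_left α β g
  rw [h] at h1
  simpa [Finsupp.sum] using h1.symm

lemma ann_right {α β : MonoidAlgebra K G} (h : α * β = 0) : Ann β.coeff α.coeff := by
  right
  intro g
  have h1 := MonoidAlgebra.coeff_mul_apply_right α β g
  rw [h] at h1
  simpa [Finsupp.sum, mul_comm] using h1.symm

/-- The two translation families. -/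
lemma leftT (a b : G →₀ K) (h : ∀ g, ∑ y ∈ a.support, a y * b (y⁻¹ * g) = 0) :
    ∀ g, ∑ y ∈ a.support, a y * b ((Equiv.mulLeft y).symm g) = 0 := by
  intro g
  simpa using h g

lemma rightT (a b : G →₀ K) (h : ∀ g, ∑ y ∈ a.support, a y * b (g * y⁻¹) = 0) :
    ∀ g, ∑ y ∈ a.support, a y * b ((Equiv.mulRight y).symm g) = 0 := by
  intro g
  simpa using h g

lemma pow_mulLeft (x y : G) (n : ℕ) (k : G) :
    ((((Equiv.mulLeft y).symm : Equiv.Perm G) * Equiv.mulLeft x : Equiv.Perm G) ^ n) k
      = (y⁻¹ * x) ^ n * k := by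
  induction n with
  | zero => simp
  | succ n ih =>
    rw [pow_succ', Equiv.Perm.mul_apply, ih, pow_succ']
    simp [mul_assoc]

lemma pow_mulRight (x y : G) (n : ℕ) (k : G) :
    ((((Equiv.mulRight y).symm : Equiv.Perm G) * Equiv.mulRight x : Equiv.Perm G) ^ n) k
      = k * (x * y⁻¹) ^ n := by
  induction n with
  | zero => simp
  | succ n ih =>
    rw [pow_succ', Equiv.Perm.mul_apply, ih, pow_succ]
    simp [mul_assoc]

lemma no_fix (hG : ∀ g : G, IsOfFinOrder g → g = 1) {g : G} {n : ℕ} (hn : 0 < n)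
    (h : g ^ n = 1) : g = 1 :=
  hG g (isOfFinOrder_iff_pow_eq_one.mpr ⟨n, hn, h⟩)

/-- The archimedean constraint. -/
lemma arch (hG : ∀ g : G, IsOfFinOrder g → g = 1) {a b : G →₀ K} (hb : b ≠ 0) (h : Ann a b)
    (v : AbsoluteValue K ℝ) [DecidableEq G] (ha : a ≠ 0) (x : G) :
    v (a x) < ∑ y ∈ a.support.erase x, v (a y) := by
  by_cases hx : a x = 0
  · rw [hx, map_zero]
    have hxs : x ∉ a.support := fun hc => (Finsupp.mem_support_iff.mp hc) hx
    rw [Finset.erase_eq_of_notMem hxs]
    obtain ⟨y, hy⟩ := Finsupp.support_nonempty_iff.mpr ha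
    exact Finset.sum_pos' (fun _ _ => v.nonneg _) ⟨y, hy, v.pos (Finsupp.mem_support_iff.mp hy)⟩
  · by_contra hcon
    rw [not_lt] at hcon
    rcases h with h | h
    · obtain ⟨y, hy, hyx, n, hn, k, hk⟩ := astep v (fun y => Equiv.mulLeft y) a b (leftT a b h) hb
        hx hcon
      rw [pow_mulLeft] at hk
      have h1 := no_fix hG hn (mul_eq_right.mp hk)
      exact hyx (inv_mul_eq_one.mp h1)
    · obtain ⟨y, hy, hyx, n, hn, k, hk⟩ := astep v (fun y => Equiv.mulRight y) a b (rightT a b h) hb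
        hx hcon
      rw [pow_mulRight] at hk
      have h1 := no_fix hG hn (mul_eq_left.mp hk)
      exact hyx (mul_inv_eq_one.mp h1).symm

/-- The non-archimedean constraint: at least three leading terms. -/
lemma three (hG : ∀ g : G, IsOfFinOrder g → g = 1) {a b : G →₀ K} (ha : a ≠ 0) (hb : b ≠ 0)
    (h : Ann a b) {Γ₀ : Type w} [LinearOrderedCommGroupWithZero Γ₀] (v : Valuation K Γ₀) :
    3 ≤ (Lead v a).card := by
  classical
  by_contra hcon
  rw [not_le] at hcon
  obtain ⟨x, hx⟩ := Lead_nonempty v ha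
  obtain ⟨h₀, hh₀⟩ := Lead_nonempty v hb
  rcases h with h | h
  · have hst := fun k hk => step v (fun y => Equiv.mulLeft y) a b (leftT a b h) (x := x) (h := k)
      hx hk
    obtain ⟨y, hyL, hyx, -⟩ := hst h₀ hh₀
    have huniq : ∀ z ∈ Lead v a, z ≠ x → z = y := by
      intro z hz hzx
      by_contra hzy
      have hsub : ({x, y, z} : Finset G) ⊆ Lead v a := by
        intro t ht
        simp only [Finset.mem_insert, Finset.mem_singleton] at ht
        rcases ht with rfl | rfl | rfl <;> assumption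
      have h3 : ({x, y, z} : Finset G).card = 3 :=
        Finset.card_eq_three.mpr ⟨x, y, z, Ne.symm hyx, Ne.symm hzx, Ne.symm hzy, rfl⟩
      have := Finset.card_le_card hsub
      omega
    obtain ⟨n, hn, k, hk⟩ := exists_pow_fixed (Lead v b)
      (((Equiv.mulLeft y).symm : Equiv.Perm G) * Equiv.mulLeft x) (fun k hk => by
        obtain ⟨z, hz, hzx, hz'⟩ := hst k hk
        rw [huniq z hz hzx] at hz'
        rw [Equiv.Perm.mul_apply]
        exact hz') hh₀
    rw [pow_mulLeft] at hk
    have h1 := no_fix hG hn (mul_eq_right.mp hk)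
    exact hyx (inv_mul_eq_one.mp h1)
  · have hst := fun k hk => step v (fun y => Equiv.mulRight y) a b (rightT a b h) (x := x) (h := k)
      hx hk
    obtain ⟨y, hyL, hyx, -⟩ := hst h₀ hh₀
    have huniq : ∀ z ∈ Lead v a, z ≠ x → z = y := by
      intro z hz hzx
      by_contra hzy
      have hsub : ({x, y, z} : Finset G) ⊆ Lead v a := by
        intro t ht
        simp only [Finset.mem_insert, Finset.mem_singleton] at ht
        rcases ht with rfl | rfl | rfl <;> assumption
      have h3 : ({x, y, z} : Finset G).card = 3 :=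
        Finset.card_eq_three.mpr ⟨x, y, z, Ne.symm hyx, Ne.symm hzx, Ne.symm hzy, rfl⟩
      have := Finset.card_le_card hsub
      omega
    obtain ⟨n, hn, k, hk⟩ := exists_pow_fixed (Lead v b)
      (((Equiv.mulRight y).symm : Equiv.Perm G) * Equiv.mulRight x) (fun k hk => by
        obtain ⟨z, hz, hzx, hz'⟩ := hst k hk
        rw [huniq z hz hzx] at hz'
        rw [Equiv.Perm.mul_apply]
        exact hz') hh₀
    rw [pow_mulRight] at hk
    have h1 := no_fix hG hn (mul_eq_left.mp hk)
    exact hyx (mul_inv_eq_one.mp h1).symm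

/-- The subgroup generated by the quotients of leading points. -/
def LeadGroup {Γ₀ : Type w} [LinearOrderedCommGroupWithZero Γ₀] (v : Valuation K Γ₀)
    (a : G →₀ K) : Subgroup G :=
  Subgroup.closure {g | ∃ x ∈ Lead v a, ∃ y ∈ Lead v a, g = x⁻¹ * y}

/-- The leading group does not have the unique product property. -/
lemma not_up {a b : G →₀ K} (ha : a ≠ 0) (hb : b ≠ 0)
    (h : Ann a b) {Γ₀ : Type w} [LinearOrderedCommGroupWithZero Γ₀] (v : Valuation K Γ₀) :
    ¬ UniqueProds (LeadGroup v a) := by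
  classical
  intro hup
  obtain ⟨x₀, hx₀⟩ := Lead_nonempty v ha
  obtain ⟨h₀, hh₀⟩ := Lead_nonempty v hb
  have hmem : ∀ x ∈ Lead v a, x₀⁻¹ * x ∈ LeadGroup v a := fun x hx =>
    Subgroup.subset_closure ⟨x₀, hx₀, x, hx, rfl⟩
  set P : Finset (LeadGroup v a) := (Lead v a).attach.image
    (fun x => (⟨x₀⁻¹ * x.1, hmem x.1 x.2⟩ : LeadGroup v a)) with hP
  have hPne : P.Nonempty := ⟨_, Finset.mem_image_of_mem _ (Finset.mem_attach _ ⟨x₀, hx₀⟩)⟩
  have hPmem : ∀ p : LeadGroup v a, x₀ * (p : G) ∈ Lead v a → p ∈ P := by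
    intro p hp
    rw [hP, Finset.mem_image]
    exact ⟨⟨x₀ * p, hp⟩, Finset.mem_attach _ _, Subtype.ext (by simp)⟩
  have hPmem' : ∀ p ∈ P, x₀ * (p : G) ∈ Lead v a := by
    intro p hp
    rw [hP, Finset.mem_image] at hp
    obtain ⟨x, -, rfl⟩ := hp
    simpa using x.2
  rcases h with h | h
  · have hfin : {s : LeadGroup v a | (s : G) * h₀ ∈ Lead v b}.Finite :=
      Set.Finite.preimage (fun s _ t _ hst => Subtype.ext (mul_right_cancel hst))
        (Lead v b).finite_toSet
    set Q : Finset (LeadGroup v a) := hfin.toFinset with hQ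
    have hQmem : ∀ s, s ∈ Q ↔ (s : G) * h₀ ∈ Lead v b := by
      intro s; rw [hQ, Set.Finite.mem_toFinset]; rfl
    have hQne : Q.Nonempty := ⟨1, by rw [hQmem]; simpa using hh₀⟩
    obtain ⟨p, hp, q, hq, hu⟩ := hup.uniqueMul_of_nonempty hPne hQne
    obtain ⟨y, hy, hyx, hy'⟩ := step v (fun y => Equiv.mulLeft y) a b (leftT a b h)
      (hPmem' p hp) ((hQmem q).mp hq)
    have hymem : x₀⁻¹ * y ∈ LeadGroup v a := hmem y hy
    set p' : LeadGroup v a := ⟨x₀⁻¹ * y, hymem⟩ with hp'
    have hp'P : p' ∈ P := hPmem p' (by simpa [hp'] using hy)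
    have hq'Q : p'⁻¹ * p * q ∈ Q := by
      rw [hQmem]
      have : ((p'⁻¹ * p * q : LeadGroup v a) : G) * h₀
          = (Equiv.mulLeft y).symm ((Equiv.mulLeft (x₀ * (p : G))) ((q : G) * h₀)) := by
        simp [hp', mul_assoc]
      rw [this]; exact hy'
    have := hu hp'P hq'Q (by group)
    apply hyx
    have h2 := congrArg Subtype.val this.1
    rw [← h2]
    simp [hp']
  · have hfin : {s : LeadGroup v a | h₀ * x₀ * (s : G) * x₀⁻¹ ∈ Lead v b}.Finite :=
      Set.Finite.preimage (fun s _ t _ hst => Subtype.ext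
        (mul_left_cancel (mul_right_cancel hst)))
        (Lead v b).finite_toSet
    set Q : Finset (LeadGroup v a) := hfin.toFinset with hQ
    have hQmem : ∀ s, s ∈ Q ↔ h₀ * x₀ * (s : G) * x₀⁻¹ ∈ Lead v b := by
      intro s; rw [hQ, Set.Finite.mem_toFinset]; rfl
    have hQne : Q.Nonempty := ⟨1, by rw [hQmem]; simpa using hh₀⟩
    obtain ⟨q, hq, p, hp, hu⟩ := hup.uniqueMul_of_nonempty hQne hPne
    obtain ⟨y, hy, hyx, hy'⟩ := step v (fun y => Equiv.mulRight y) a b (rightT a b h)
      (hPmem' p hp) ((hQmem q).mp hq)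
    have hymem : x₀⁻¹ * y ∈ LeadGroup v a := hmem y hy
    set p' : LeadGroup v a := ⟨x₀⁻¹ * y, hymem⟩ with hp'
    have hp'P : p' ∈ P := hPmem p' (by simpa [hp'] using hy)
    have hq'Q : q * p * p'⁻¹ ∈ Q := by
      rw [hQmem]
      have : h₀ * x₀ * ((q * p * p'⁻¹ : LeadGroup v a) : G) * x₀⁻¹
          = (Equiv.mulRight y).symm ((Equiv.mulRight (x₀ * (p : G)))
            (h₀ * x₀ * (q : G) * x₀⁻¹)) := by
        simp [hp', mul_assoc]
      rw [this]; exact hy'
    have := hu hq'Q hp'P (by group)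
    apply hyx
    have h2 := congrArg Subtype.val this.2
    rw [← h2]
    simp [hp']

end Vale.Agent.P201
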