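import Mathlib

/-!
Maximum principle for zero divisors in group algebras: leading parts with respect to
valuations, and dominant coefficients with respect to absolute values.
-/

namespace Vale.Agent.P201

open Finset

universe u v w

/-- The leading set of a finitely supported function with respect to a valuation: the points of
the support where the valuation of the coefficient is maximal. -/
noncomputable def Lead {G : Type u} {K : Type v} [Field K] {Γ₀ : Type w}
    [LinearOrderedCommGroupWithZero Γ₀] (v : Valuation K Γ₀) (a : G →₀ K) : Finset G :=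
  by classical exact a.support.filter (fun g => ∀ h, v (a h) ≤ v (a g))

section

variable {G : Type u} {K : Type v} [Field K] {Γ₀ : Type w} [LinearOrderedCommGroupWithZero Γ₀]

lemma mem_Lead {v : Valuation K Γ₀} {a : G →₀ K} {g : G} :
    g ∈ Lead v a ↔ a g ≠ 0 ∧ ∀ h, v (a h) ≤ v (a g) := by
  classical
  unfold Lead
  simp

lemma Lead_nonempty (v : Valuation K Γ₀) {a : G →₀ K} (ha : a ≠ 0) : (Lead v a).Nonempty := by
  classical
  obtain ⟨g, hg, hmax⟩ := Finset.exists_max_image a.support (fun g => v (a g))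
    (Finsupp.support_nonempty_iff.mpr ha)
  refine ⟨g, mem_Lead.mpr ⟨Finsupp.mem_support_iff.mp hg, fun h => ?_⟩⟩
  by_cases hh : a h = 0
  · rw [hh, map_zero]; exact zero_le
  · exact hmax h (Finsupp.mem_support_iff.mpr hh)

/-- Non-archimedean maximum principle. -/
lemma step (v : Valuation K Γ₀) (T : G → Equiv.Perm G) (a b : G →₀ K)
    (h0 : ∀ g, ∑ y ∈ a.support, a y * b ((T y).symm g) = 0) {x h : G}
    (hx : x ∈ Lead v a) (hh : h ∈ Lead v b) :
    ∃ y ∈ Lead v a, y ≠ x ∧ (T y).symm (T x h) ∈ Lead v b := by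
  classical
  by_contra hcon
  push Not at hcon
  obtain ⟨hx0, hxm⟩ := mem_Lead.mp hx
  obtain ⟨hh0, hhm⟩ := mem_Lead.mp hh
  have hvx : v (a x) ≠ 0 := (Valuation.ne_zero_iff v).mpr hx0
  have hvh : v (b h) ≠ 0 := (Valuation.ne_zero_iff v).mpr hh0
  have hsum := h0 (T x h)
  rw [← Finset.add_sum_erase a.support _ (Finsupp.mem_support_iff.mpr hx0)] at hsum
  simp only [Equiv.symm_apply_apply] at hsum
  have hlt : v (∑ y ∈ a.support.erase x, a y * b ((T y).symm (T x h))) < v (a x) * v (b h) := by
    refine Valuation.map_sum_lt v (mul_ne_zero hvx hvh) fun y hy => ?_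
    rw [Valuation.map_mul]
    obtain ⟨hyx, hys⟩ := Finset.mem_erase.mp hy
    by_cases hyL : y ∈ Lead v a
    · have hnot := hcon y hyL hyx
      have h1 : v (b ((T y).symm (T x h))) < v (b h) := by
        refine lt_of_le_of_ne (hhm _) fun heq => hnot ?_
        refine mem_Lead.mpr ⟨fun hz => ?_, fun k => ?_⟩
        · rw [hz, map_zero] at heq
          exact hvh heq.symm
        · rw [heq]; exact hhm k
      calc v (a y) * v (b ((T y).symm (T x h))) ≤ v (a x) * v (b ((T y).symm (T x h))) :=
            mul_le_mul_left (hxm y) _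
        _ < v (a x) * v (b h) := by
            exact (mul_lt_mul_iff_right₀ (zero_lt_iff.mpr hvx)).mpr h1
    · have h1 : v (a y) < v (a x) := by
        refine lt_of_le_of_ne (hxm _) fun heq => hyL ?_
        refine mem_Lead.mpr ⟨Finsupp.mem_support_iff.mp hys, fun k => ?_⟩
        rw [heq]; exact hxm k
      calc v (a y) * v (b ((T y).symm (T x h))) ≤ v (a y) * v (b h) :=
            mul_le_mul_right (hhm _) _
        _ < v (a x) * v (b h) := by
            exact (mul_lt_mul_iff_left₀ (zero_lt_iff.mpr hvh)).mpr h1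
  have heq : v (a x * b h) = v (∑ y ∈ a.support.erase x, a y * b ((T y).symm (T x h))) := by
    rw [eq_neg_of_add_eq_zero_left hsum, Valuation.map_neg]
  rw [← heq, Valuation.map_mul] at hlt
  exact lt_irrefl _ hlt

end

/-- A nonempty finite set cannot be mapped into itself by a permutation all of whose orbits are
infinite. -/
lemma exists_pow_fixed {G : Type u} (H : Finset G) (t : Equiv.Perm G)
    (ht : ∀ h ∈ H, t h ∈ H) {h : G} (hh : h ∈ H) : ∃ n : ℕ, 0 < n ∧ ∃ k : G, (t ^ n) k = k := by
  classical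
  have hmem : ∀ n : ℕ, (t ^ n) h ∈ H := by
    intro n
    induction n with
    | zero => simpa using hh
    | succ n ih => rw [pow_succ', Equiv.Perm.mul_apply]; exact ht _ ih
  obtain ⟨m, n, hmn, heq⟩ := Finite.exists_ne_map_eq_of_infinite
    (fun n : ℕ => (⟨(t ^ n) h, hmem n⟩ : H))
  have heq' : (t ^ m) h = (t ^ n) h := congrArg Subtype.val heq
  wlog hlt : m < n generalizing m n
  · exact this n m (Ne.symm hmn) heq.symm heq'.symm (lt_of_le_of_ne (not_lt.mp hlt) (Ne.symm hmn))
  refine ⟨n - m, Nat.sub_pos_of_lt hlt, (t ^ m) h, ?_⟩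
  rw [← Equiv.Perm.mul_apply, ← pow_add, Nat.sub_add_cancel hlt.le, heq']

/-- Archimedean maximum principle. -/
lemma astep {G : Type u} {K : Type v} [Field K] (v : AbsoluteValue K ℝ) (T : G → Equiv.Perm G)
    (a b : G →₀ K) (h0 : ∀ g, ∑ y ∈ a.support, a y * b ((T y).symm g) = 0) (hb : b ≠ 0)
    {x : G} (hx : a x ≠ 0) [DecidableEq G] (hdom : ∑ y ∈ a.support.erase x, v (a y) ≤ v (a x)) :
    ∃ y ∈ a.support, y ≠ x ∧ ∃ n : ℕ, 0 < n ∧ ∃ k, (((T y).symm * T x : Equiv.Perm G) ^ n) k = k := by
  classical
  obtain ⟨h, hh, hmax'⟩ := Finset.exists_max_image b.support (fun g => v (b g))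
    (Finsupp.support_nonempty_iff.mpr hb)
  have hmax : ∀ k, v (b k) ≤ v (b h) := by
    intro k
    by_cases hk : b k = 0
    · rw [hk, map_zero]; exact v.nonneg _
    · exact hmax' k (Finsupp.mem_support_iff.mpr hk)
  have hpos : 0 < v (b h) := v.pos (Finsupp.mem_support_iff.mp hh)
  set H : Finset G := b.support.filter (fun g => v (b g) = v (b h)) with hH
  have hmemH : ∀ k, k ∈ H ↔ v (b k) = v (b h) := by
    intro k
    rw [hH, Finset.mem_filter, Finsupp.mem_support_iff]
    refine ⟨fun hk => hk.2, fun hk => ⟨fun hz => ?_, hk⟩⟩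
    rw [hz, map_zero] at hk
    exact hpos.ne hk
  -- key
  have key : ∀ k ∈ H, ∀ y ∈ a.support.erase x, v (b ((T y).symm (T x k))) = v (b h) := by
    intro k hk y hy
    have hsum := h0 (T x k)
    rw [← Finset.add_sum_erase a.support _ (Finsupp.mem_support_iff.mpr hx)] at hsum
    simp only [Equiv.symm_apply_apply] at hsum
    have h1 : v (a x) * v (b h) ≤ ∑ y ∈ a.support.erase x, v (a y) * v (b ((T y).symm (T x k))) := by
      calc v (a x) * v (b h) = v (a x * b k) := by rw [map_mul, (hmemH k).mp hk]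
        _ = v (∑ y ∈ a.support.erase x, a y * b ((T y).symm (T x k))) := by
            rw [eq_neg_of_add_eq_zero_left hsum, v.map_neg]
        _ ≤ ∑ y ∈ a.support.erase x, v (a y * b ((T y).symm (T x k))) := v.sum_le _ _
        _ = ∑ y ∈ a.support.erase x, v (a y) * v (b ((T y).symm (T x k))) := by
            simp only [map_mul]
    by_contra hne
    have hlt : v (b ((T y).symm (T x k))) < v (b h) := lt_of_le_of_ne (hmax _) hne
    have hay : 0 < v (a y) := v.pos (Finsupp.mem_support_iff.mp (Finset.mem_of_mem_erase hy))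
    have h2 : ∑ y ∈ a.support.erase x, v (a y) * v (b ((T y).symm (T x k)))
        < ∑ y ∈ a.support.erase x, v (a y) * v (b h) := by
      refine Finset.sum_lt_sum (fun z _ => mul_le_mul_of_nonneg_left (hmax _) (v.nonneg _))
        ⟨y, hy, mul_lt_mul_of_pos_left hlt hay⟩
    rw [← Finset.sum_mul] at h2
    have h3 := mul_le_mul_of_nonneg_right hdom hpos.le
    linarith
  by_cases hne : (a.support.erase x).Nonempty
  · obtain ⟨y, hy⟩ := hne
    refine ⟨y, Finset.mem_of_mem_erase hy, Finset.ne_of_mem_erase hy, ?_⟩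
    refine exists_pow_fixed H _ (fun k hk => ?_) ((hmemH h).mpr rfl)
    rw [hmemH, Equiv.Perm.mul_apply]
    exact key k hk y hy
  · exfalso
    rw [Finset.not_nonempty_iff_eq_empty] at hne
    have hsum := h0 (T x h)
    rw [← Finset.add_sum_erase a.support _ (Finsupp.mem_support_iff.mpr hx), hne] at hsum
    simp only [Equiv.symm_apply_apply, Finset.sum_empty, add_zero] at hsum
    rcases mul_eq_zero.mp hsum with h | h
    · exact hx h
    · rw [h, map_zero] at hpos; exact lt_irrefl _ hpos

end Vale.Agent.P201
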