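import Vale.Agent.P201.Cons

/-!
Integrality of coefficient ratios.
-/

namespace Vale.Agent.P201

open Finset

universe u v w

variable {K : Type v} [Field K]

/-- A nonintegral element is large for some valuation subring. -/
lemma exists_valuation (x : K) (hx : ¬ IsIntegral ℤ x) :
    ∃ V : ValuationSubring K, 1 < V.valuation x := by
  let R : Subring K := (integralClosure ℤ K).toSubring
  have hxR : x ∉ R := hx
  haveI : IsIntegrallyClosedIn R K := by
    have : IsIntegrallyClosedIn (integralClosure ℤ K) K := inferInstance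
    exact this
  obtain ⟨V, -, hV⟩ := R.exists_le_valuationSubring_of_isIntegrallyClosedIn hxR
  refine ⟨V, ?_⟩
  rw [← not_le, V.valuation_le_one_iff]
  exact hV

variable {G : Type u} [Group G]

lemma Lead_subset_support {Γ₀ : Type w} [LinearOrderedCommGroupWithZero Γ₀]
    (v : Valuation K Γ₀) (a : G →₀ K) : Lead v a ⊆ a.support := by
  intro g hg
  exact Finsupp.mem_support_iff.mpr (mem_Lead.mp hg).1

/-- Coefficient ratios of trinomial zero divisors are integral. -/
lemma tri_integral (hG : ∀ g : G, IsOfFinOrder g → g = 1) {a b : G →₀ K} (ha : a ≠ 0)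
    (hb : b ≠ 0) (h : Ann a b) (h3 : a.support.card = 3) {x y : G} (hy : y ∈ a.support) :
    IsIntegral ℤ (a x / a y) := by
  by_contra hcon
  obtain ⟨V, hV⟩ := exists_valuation _ hcon
  have h1 := three hG ha hb h V.valuation
  have hsub := Lead_subset_support V.valuation a
  have heq : Lead V.valuation a = a.support :=
    Finset.eq_of_subset_of_card_le hsub (by rw [h3]; exact h1)
  have hyL : y ∈ Lead V.valuation a := by rw [heq]; exact hy
  obtain ⟨hy0, hym⟩ := mem_Lead.mp hyL
  have h2 := hym x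
  rw [map_div₀] at hV
  have h4 : V.valuation (a x) / V.valuation (a y) ≤ 1 := by
    have hv0 : V.valuation (a y) ≠ 0 := (Valuation.ne_zero_iff _).mpr hy0
    exact div_le_one_of_le₀ h2 zero_le
  exact absurd hV (not_lt.mpr h4)

/-- A valuation in which the prime `p` is small. -/
lemma exists_padic [CharZero K] (p : ℕ) (hp : p.Prime) :
    ∃ V : ValuationSubring K, V.valuation ((p : ℤ) : K) < 1 := by
  have hne : ¬ IsIntegral ℤ (((p : ℚ)⁻¹ : ℚ) : K) := by
    intro hint
    have h1 : IsIntegral ℤ ((p : ℚ)⁻¹) := by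
      have : (((p : ℚ)⁻¹ : ℚ) : K) = algebraMap ℚ K ((p : ℚ)⁻¹) := (eq_ratCast (algebraMap ℚ K) _).symm
      rw [this] at hint
      exact (isIntegral_algebraMap_iff (algebraMap ℚ K).injective).mp hint
    obtain ⟨n, hn⟩ := IsIntegrallyClosed.isIntegral_iff.mp h1
    have hp0 : (p : ℚ) ≠ 0 := by exact_mod_cast hp.ne_zero
    have h2 : (n : ℚ) * p = 1 := by
      have : (n : ℚ) = (p : ℚ)⁻¹ := by simpa using hn
      rw [this, inv_mul_cancel₀ hp0]
    have h3 : n * (p : ℤ) = 1 := by exact_mod_cast h2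
    have h4 : (p : ℤ) ∣ 1 := ⟨n, by rw [mul_comm]; exact h3.symm⟩
    have h5 : p ∣ 1 := by exact_mod_cast h4
    exact hp.one_lt.ne' (Nat.dvd_one.mp h5)
  obtain ⟨V, hV⟩ := exists_valuation _ hne
  refine ⟨V, ?_⟩
  have hp0 : ((p : ℤ) : K) ≠ 0 := by exact_mod_cast hp.ne_zero
  have h1 : (((p : ℚ)⁻¹ : ℚ) : K) = (((p : ℤ) : K))⁻¹ := by push_cast; rfl
  rw [h1, map_inv₀] at hV
  have hv0 : V.valuation ((p : ℤ) : K) ≠ 0 := (Valuation.ne_zero_iff _).mpr hp0
  exact (one_lt_inv₀ (zero_lt_iff.mpr hv0)).mp hV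

lemma val_int_le (V : ValuationSubring K) (n : ℤ) : V.valuation (n : K) ≤ 1 := by
  rw [V.valuation_le_one_iff]
  exact intCast_mem V n

/-- Integer coefficients: for every prime `p`, either all coefficients are divisible by `p` or at
least three are not. -/
lemma int_coeff [CharZero K] (hG : ∀ g : G, IsOfFinOrder g → g = 1) {a b : G →₀ K} (ha : a ≠ 0)
    (hb : b ≠ 0) (h : Ann a b) (c : G →₀ ℤ) (hc : ∀ g, a g = (c g : K)) (p : ℕ) (hp : p.Prime)
    (hex : ∃ g, ¬ (p : ℤ) ∣ c g) : 3 ≤ {g ∈ c.support | ¬ (p : ℤ) ∣ c g}.card := by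
  classical
  obtain ⟨V, hV⟩ := exists_padic (K := K) p hp
  have hdiv : ∀ n : ℤ, (p : ℤ) ∣ n → V.valuation (n : K) < 1 := by
    rintro n ⟨m, rfl⟩
    rw [Int.cast_mul, map_mul]
    have h1 := val_int_le V m
    calc V.valuation ((p : ℤ) : K) * V.valuation (m : K)
        ≤ V.valuation ((p : ℤ) : K) * 1 := mul_le_mul_right h1 _
      _ < 1 := by rw [mul_one]; exact hV
  have hndiv : ∀ n : ℤ, ¬ (p : ℤ) ∣ n → V.valuation (n : K) = 1 := by
    intro n hn
    have hpz : Prime (p : ℤ) := Nat.prime_iff_prime_int.mp hp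
    have hco : IsCoprime (p : ℤ) n := (Prime.coprime_iff_not_dvd hpz).mpr hn
    obtain ⟨s, t, hst⟩ := hco
    refine le_antisymm (val_int_le V n) ?_
    by_contra hlt
    rw [not_le] at hlt
    have h1 : V.valuation ((s * p + t * n : ℤ) : K) < 1 := by
      push_cast
      refine Valuation.map_add_lt _ ?_ ?_
      · rw [map_mul]
        calc V.valuation (s : K) * V.valuation (p : K) ≤ 1 * V.valuation (p : K) :=
              mul_le_mul_left (val_int_le V s) _
          _ < 1 := by rw [one_mul]; exact_mod_cast hV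
      · rw [map_mul]
        calc V.valuation (t : K) * V.valuation (n : K) ≤ 1 * V.valuation (n : K) :=
              mul_le_mul_left (val_int_le V t) _
          _ < 1 := by rw [one_mul]; exact hlt
    rw [hst] at h1
    simp at h1
  refine le_trans (three hG ha hb h V.valuation) (Finset.card_le_card ?_)
  intro g hg
  obtain ⟨hg0, hgm⟩ := mem_Lead.mp hg
  obtain ⟨g', hg'⟩ := hex
  have h1 : V.valuation (a g') = 1 := by rw [hc]; exact hndiv _ hg'
  have h2 : 1 ≤ V.valuation (a g) := h1 ▸ hgm g'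
  rw [hc] at h2 hg0
  rw [Finset.mem_filter, Finsupp.mem_support_iff]
  refine ⟨fun hz => hg0 (by rw [hz]; simp), fun hd => ?_⟩
  exact absurd (hdiv _ hd) (not_lt.mpr h2)

end Vale.Agent.P201
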