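import Vale.Agent.P201.Integral

/-!
Reduction of zero divisors to finite fields of a given characteristic.
-/

namespace Vale.Agent.P201

open Finset

universe u v w

/-- A pair of nonzero elements with zero product and prescribed bounds for the supports. -/
def Pair (F : Type v) [Field F] (G : Type u) [Group G] (A B : Finset G) : Prop :=
  ∃ α β : MonoidAlgebra F G, α ≠ 0 ∧ β ≠ 0 ∧ α * β = 0 ∧ α.coeff.support ⊆ A ∧
    β.coeff.support ⊆ B

/-- Transfer along a correspondence `K ← R → F`. -/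
lemma transfer {K : Type v} [Field K] {F : Type w} [Field F] {R : Type v} [CommRing R]
    {G : Type u} [Group G]
    (ι : R →+* K) (hι : Function.Injective ι) (π : R →+* F) (α β : MonoidAlgebra K G)
    (h : α * β = 0) (hα : ∀ g, α.coeff g ∈ Set.range ι) (hβ : ∀ g, β.coeff g ∈ Set.range ι) :
    ∃ α' β' : MonoidAlgebra F G, α' * β' = 0 ∧
      (∀ (g : G) (r : R), α.coeff g = ι r → α'.coeff g = π r) ∧
      (∀ (g : G) (r : R), β.coeff g = ι r → β'.coeff g = π r) := by
  have h1 : α ∈ Set.range (MonoidAlgebra.map (M := G) (ι : R →+ K)) := by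
    rw [MonoidAlgebra.range_map]; exact hα
  have h2 : β ∈ Set.range (MonoidAlgebra.map (M := G) (ι : R →+ K)) := by
    rw [MonoidAlgebra.range_map]; exact hβ
  obtain ⟨a, ha⟩ := h1
  obtain ⟨b, hb⟩ := h2
  have ha' : MonoidAlgebra.mapRingHom G ι a = α := ha
  have hb' : MonoidAlgebra.mapRingHom G ι b = β := hb
  have hinj : Function.Injective (MonoidAlgebra.mapRingHom G ι) :=
    MonoidAlgebra.map_injective (ι : R →+ K) hι
  have hab : a * b = 0 := by
    apply hinj
    rw [map_mul, ha', hb', h, map_zero]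
  refine ⟨MonoidAlgebra.mapRingHom G π a, MonoidAlgebra.mapRingHom G π b, ?_, ?_, ?_⟩
  · rw [← map_mul, hab, map_zero]
  · intro g r hr
    rw [MonoidAlgebra.coeff_mapRingHom]
    congr 1
    apply hι
    rw [← hr, ← ha', MonoidAlgebra.coeff_mapRingHom]
  · intro g r hr
    rw [MonoidAlgebra.coeff_mapRingHom]
    congr 1
    apply hι
    rw [← hr, ← hb', MonoidAlgebra.coeff_mapRingHom]

/-- From a field of characteristic `p` to a finite field. -/
lemma to_finite (p : ℕ) (hp : p.Prime) {k : Type v} [Field k] [CharP k p] {G : Type u} [Group G]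
    {α β : MonoidAlgebra k G} (hα : α ≠ 0) (hβ : β ≠ 0) (h : α * β = 0) :
    ∃ (F : Type v) (_ : Field F), Finite F ∧ CharP F p ∧
      Pair F G α.coeff.support β.coeff.support := by
  classical
  haveI : Fact p.Prime := ⟨hp⟩
  letI : Algebra (ZMod p) k := ZMod.algebra k p
  let S : Finset k := (α.coeff.support.image α.coeff ∪ β.coeff.support.image β.coeff)
  let S' : Finset k := S ∪ S.image (fun c => c⁻¹)
  let R : Subalgebra (ZMod p) k := Algebra.adjoin (ZMod p) (S' : Set k)
  haveI hft : Algebra.FiniteType (ZMod p) R :=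
    (Subalgebra.fg_iff_finiteType R).mp ⟨S', rfl⟩
  obtain ⟨m, hm⟩ := Ideal.exists_maximal R
  letI : Field (R ⧸ m) := Ideal.Quotient.field m
  haveI : Algebra.FiniteType (ZMod p) (R ⧸ m) :=
    Algebra.FiniteType.of_surjective (Ideal.Quotient.mkₐ (ZMod p) m)
      (Ideal.Quotient.mkₐ_surjective _ _)
  haveI : Module.Finite (ZMod p) (R ⧸ m) := finite_of_finite_type_of_isJacobsonRing _ _
  haveI : Finite (R ⧸ m) := Module.finite_of_finite (ZMod p)
  have hchar : CharP (R ⧸ m) p :=
    charP_of_injective_algebraMap (algebraMap (ZMod p) (R ⧸ m)).injective p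
  have hSR : ∀ c ∈ S, c ∈ R := fun c hc =>
    Algebra.subset_adjoin (Finset.mem_coe.mpr (Finset.mem_union_left _ hc))
  have hSR' : ∀ c ∈ S, c⁻¹ ∈ R := fun c hc =>
    Algebra.subset_adjoin (Finset.mem_coe.mpr
      (Finset.mem_union_right _ (Finset.mem_image_of_mem _ hc)))
  have hαS : ∀ g, α.coeff g ≠ 0 → α.coeff g ∈ S := fun g hg =>
    Finset.mem_union_left _ (Finset.mem_image_of_mem _ (Finsupp.mem_support_iff.mpr hg))
  have hβS : ∀ g, β.coeff g ≠ 0 → β.coeff g ∈ S := fun g hg =>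
    Finset.mem_union_right _ (Finset.mem_image_of_mem _ (Finsupp.mem_support_iff.mpr hg))
  have hαR : ∀ g, α.coeff g ∈ Set.range (R.val : R →+* k) := by
    intro g
    by_cases hg : α.coeff g = 0
    · exact ⟨0, by rw [hg, map_zero]⟩
    · exact ⟨⟨_, hSR _ (hαS g hg)⟩, rfl⟩
  have hβR : ∀ g, β.coeff g ∈ Set.range (R.val : R →+* k) := by
    intro g
    by_cases hg : β.coeff g = 0
    · exact ⟨0, by rw [hg, map_zero]⟩
    · exact ⟨⟨_, hSR _ (hβS g hg)⟩, rfl⟩
  obtain ⟨α', β', h', hα', hβ'⟩ := transfer (R.val : R →+* k) Subtype.val_injective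
    (Ideal.Quotient.mk m) α β h hαR hβR
  have hunit : ∀ c : k, ∀ hc : c ∈ S, c ≠ 0 → Ideal.Quotient.mk m (⟨c, hSR c hc⟩ : R) ≠ 0 := by
    intro c hc hc0 hz
    have h1 : (⟨c, hSR c hc⟩ : R) * ⟨c⁻¹, hSR' c hc⟩ = 1 := by
      apply Subtype.ext
      exact mul_inv_cancel₀ hc0
    have h2 := congrArg (Ideal.Quotient.mk m) h1
    rw [map_mul, hz, zero_mul, map_one] at h2
    exact zero_ne_one h2
  have hne : ∀ (γ : MonoidAlgebra k G) (γ' : MonoidAlgebra (R ⧸ m) G), γ ≠ 0 →
      (∀ g, γ.coeff g ≠ 0 → γ.coeff g ∈ S) →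
      (∀ (g : G) (r : R), γ.coeff g = (R.val : R →+* k) r → γ'.coeff g = Ideal.Quotient.mk m r) →
      γ' ≠ 0 ∧ γ'.coeff.support ⊆ γ.coeff.support := by
    intro γ γ' hγ hγS hγ'
    constructor
    · intro hz
      have : ∃ g, γ.coeff g ≠ 0 := by
        by_contra hc
        push Not at hc
        apply hγ
        ext g
        simpa using hc g
      obtain ⟨g, hg⟩ := this
      have h1 := hγ' g ⟨_, hSR _ (hγS g hg)⟩ rfl
      rw [hz] at h1
      exact hunit _ (hγS g hg) hg (by rw [← h1]; simp)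
    · intro g hg
      rw [Finsupp.mem_support_iff] at hg ⊢
      intro hz
      apply hg
      rw [hγ' g 0 (by rw [hz, map_zero]), map_zero]
  obtain ⟨hα0, hαs⟩ := hne α α' hα hαS hα'
  obtain ⟨hβ0, hβs⟩ := hne β β' hβ hβS hβ'
  exact ⟨R ⧸ m, inferInstance, inferInstance, hchar, α', β', hα0, hβ0, h', hαs, hβs⟩

/-- Residue field of a valuation subring in which `p` is small. -/
lemma to_residue (p : ℕ) (hp : p.Prime) {K : Type v} [Field K] (V : ValuationSubring K)
    (hV : V.valuation ((p : ℤ) : K) < 1) {G : Type u} [Group G]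
    {α β : MonoidAlgebra K G} (hα : α ≠ 0) (hβ : β ≠ 0) (h : α * β = 0) :
    ∃ (k : Type v) (_ : Field k), CharP k p ∧
      Pair k G α.coeff.support β.coeff.support := by
  classical
  have hαc : α.coeff ≠ 0 := fun hc => hα (by ext g; simp [hc])
  have hβc : β.coeff ≠ 0 := fun hc => hβ (by ext g; simp [hc])
  obtain ⟨x, hx⟩ := Lead_nonempty V.valuation hαc
  obtain ⟨y, hy⟩ := Lead_nonempty V.valuation hβc
  obtain ⟨hx0, hxm⟩ := mem_Lead.mp hx
  obtain ⟨hy0, hym⟩ := mem_Lead.mp hy
  have hmem : ∀ (γ : MonoidAlgebra K G) (z : G), γ.coeff z ≠ 0 →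
      (∀ g, V.valuation (γ.coeff g) ≤ V.valuation (γ.coeff z)) →
      ∀ g, ((γ.coeff z)⁻¹ • γ).coeff g ∈ Set.range (algebraMap V K) := by
    intro γ z hz0 hzm g
    have hv : V.valuation (((γ.coeff z)⁻¹ • γ).coeff g) ≤ 1 := by
      rw [MonoidAlgebra.coeff_smul_apply, smul_eq_mul, map_mul, map_inv₀]
      have hv0 : V.valuation (γ.coeff z) ≠ 0 := (Valuation.ne_zero_iff _).mpr hz0
      calc (V.valuation (γ.coeff z))⁻¹ * V.valuation (γ.coeff g)
          ≤ (V.valuation (γ.coeff z))⁻¹ * V.valuation (γ.coeff z) := mul_le_mul_right (hzm g) _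
        _ = 1 := inv_mul_cancel₀ hv0
    rw [V.valuation_le_one_iff] at hv
    exact ⟨⟨_, hv⟩, rfl⟩
  have hprod : ((α.coeff x)⁻¹ • α) * ((β.coeff y)⁻¹ • β) = 0 := by
    rw [smul_mul_smul_comm, h, smul_zero]
  obtain ⟨α', β', h', hα', hβ'⟩ := transfer (algebraMap V K) (IsFractionRing.injective V K)
    (IsLocalRing.residue V) _ _ hprod (hmem α x hx0 hxm) (hmem β y hy0 hym)
  have hne : ∀ (γ : MonoidAlgebra K G) (γ' : MonoidAlgebra (IsLocalRing.ResidueField V) G) (z : G),
      γ.coeff z ≠ 0 →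
      (∀ (g : G) (r : V), ((γ.coeff z)⁻¹ • γ).coeff g = algebraMap V K r →
        γ'.coeff g = IsLocalRing.residue V r) →
      γ' ≠ 0 ∧ γ'.coeff.support ⊆ γ.coeff.support := by
    intro γ γ' z hz0 hγ'
    constructor
    · intro hc
      have h1 := hγ' z 1 (by
        rw [MonoidAlgebra.coeff_smul_apply, smul_eq_mul, inv_mul_cancel₀ hz0, map_one])
      rw [hc, map_one] at h1
      simp at h1
    · intro g hg
      rw [Finsupp.mem_support_iff] at hg ⊢
      intro hz
      apply hg
      rw [hγ' g 0 (by rw [MonoidAlgebra.coeff_smul_apply, hz, smul_zero, map_zero]), map_zero]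
  obtain ⟨hα0, hαs⟩ := hne α α' x hx0 hα'
  obtain ⟨hβ0, hβs⟩ := hne β β' y hy0 hβ'
  have hchar : CharP (IsLocalRing.ResidueField V) p := by
    have hpz : ((p : ℕ) : IsLocalRing.ResidueField V) = 0 := by
      have h1 : IsLocalRing.residue V ((p : ℕ) : V) = 0 := by
        rw [IsLocalRing.residue_eq_zero_iff]
        rw [V.valuation_lt_one_iff]
        simpa using hV
      rw [map_natCast] at h1
      exact h1
    obtain ⟨q, hq⟩ := CharP.exists (IsLocalRing.ResidueField V)
    have hqp : q ∣ p := (CharP.cast_eq_zero_iff _ q p).mp hpz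
    rcases (Nat.dvd_prime hp).mp hqp with h1 | h1
    · exact absurd h1 (CharP.char_ne_one (IsLocalRing.ResidueField V) q)
    · rw [← h1]; exact hq
  exact ⟨IsLocalRing.ResidueField V, inferInstance, hchar, α', β', hα0, hβ0, h', hαs, hβs⟩

/-- Zero divisors over a field of characteristic `0` or `p` give zero divisors over a finite field
of characteristic `p`, with supports contained in the given ones. -/
lemma to_finite_all (p : ℕ) (hp : p.Prime) {K : Type v} [Field K] {G : Type u} [Group G]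
    (hK : CharZero K ∨ CharP K p)
    {α β : MonoidAlgebra K G} (hα : α ≠ 0) (hβ : β ≠ 0) (h : α * β = 0) :
    ∃ (F : Type v) (_ : Field F), Finite F ∧ CharP F p ∧
      Pair F G α.coeff.support β.coeff.support := by
  rcases hK with hK | hK
  · obtain ⟨V, hV⟩ := exists_padic (K := K) p hp
    obtain ⟨k, hk, hkp, α', β', hα', hβ', h', hs, ht⟩ := to_residue p hp V hV hα hβ h
    obtain ⟨F, hF, h1, h2, α'', β'', h3, h4, h5, h6, h7⟩ := to_finite p hp hα' hβ' h'
    exact ⟨F, hF, h1, h2, α'', β'', h3, h4, h5, h6.trans hs, h7.trans ht⟩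
  · exact to_finite p hp hα hβ h

end Vale.Agent.P201
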