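import Vale.Agent.P201.Integral

/-!
Trinomials with rational ratios, and in positive characteristic.
-/

namespace Vale.Agent.P201

open Finset

universe u v w

variable {K : Type v} [Field K] {G : Type u} [Group G]

lemma rat_unit [CharZero K] {q : ℚ} (h1 : IsIntegral ℤ ((q : ℚ) : K))
    (h2 : IsIntegral ℤ (((q⁻¹ : ℚ)) : K)) (hq : q ≠ 0) : q = 1 ∨ q = -1 := by
  have key : ∀ r : ℚ, IsIntegral ℤ ((r : ℚ) : K) → ∃ n : ℤ, (n : ℚ) = r := by
    intro r hr
    have hr1 : IsIntegral ℤ r := by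
      have : ((r : ℚ) : K) = algebraMap ℚ K r := (eq_ratCast (algebraMap ℚ K) _).symm
      rw [this] at hr
      exact (isIntegral_algebraMap_iff (algebraMap ℚ K).injective).mp hr
    obtain ⟨n, hn⟩ := IsIntegrallyClosed.isIntegral_iff.mp hr1
    exact ⟨n, by simpa using hn⟩
  obtain ⟨n, hn⟩ := key q h1
  obtain ⟨m, hm⟩ := key q⁻¹ h2
  have hnm : (n : ℚ) * m = 1 := by rw [hn, hm, mul_inv_cancel₀ hq]
  have hnm' : n * m = 1 := by exact_mod_cast hnm
  rcases Int.eq_one_or_neg_one_of_mul_eq_one hnm' with h | h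
  · left; rw [← hn, h]; simp
  · right; rw [← hn, h]; simp

lemma tri_rat [CharZero K] (hG : ∀ g : G, IsOfFinOrder g → g = 1) {a b : G →₀ K} (ha : a ≠ 0)
    (hb : b ≠ 0) (h : Ann a b) (h3 : a.support.card = 3) {x y : G} (hx : x ∈ a.support)
    (hy : y ∈ a.support) (q : ℚ) (hq : a x = q * a y) : q = 1 ∨ q = -1 := by
  have hx0 := Finsupp.mem_support_iff.mp hx
  have hy0 := Finsupp.mem_support_iff.mp hy
  have hq0 : q ≠ 0 := by
    rintro rfl
    apply hx0
    rw [hq]; simp
  have e1 : a x / a y = (q : K) := by rw [hq, mul_div_assoc, div_self hy0, mul_one]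
  have e2 : a y / a x = ((q⁻¹ : ℚ) : K) := by
    rw [← inv_div, e1]; push_cast; rfl
  have h1 := tri_integral hG ha hb h h3 (x := x) hy
  have h2 := tri_integral hG ha hb h h3 (x := y) hx
  rw [e1] at h1
  rw [e2] at h2
  exact rat_unit h1 h2 hq0

lemma tri_char (p : ℕ) (hp : p.Prime) [CharP K p] (hG : ∀ g : G, IsOfFinOrder g → g = 1)
    {a b : G →₀ K} (ha : a ≠ 0)
    (hb : b ≠ 0) (h : Ann a b) (h3 : a.support.card = 3) {x y : G} (hx : x ∈ a.support)
    (hy : y ∈ a.support) : ∃ n : ℕ, 0 < n ∧ a x ^ n = a y ^ n := by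
  haveI : Fact p.Prime := ⟨hp⟩
  letI : Algebra (ZMod p) K := ZMod.algebra K p
  have hx0 := Finsupp.mem_support_iff.mp hx
  have hy0 := Finsupp.mem_support_iff.mp hy
  have h1 := tri_integral hG ha hb h h3 (x := x) hy
  have h2 : IsIntegral (ZMod p) (a x / a y) := by
    haveI : IsScalarTower ℤ (ZMod p) K := IsScalarTower.of_algebraMap_eq (fun n => by simp)
    exact IsIntegral.tower_top h1
  let F := IntermediateField.adjoin (ZMod p) {a x / a y}
  haveI : FiniteDimensional (ZMod p) F := IntermediateField.adjoin.finiteDimensional h2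
  haveI : Finite F := Module.finite_of_finite (ZMod p)
  let z : F := ⟨a x / a y, IntermediateField.mem_adjoin_simple_self _ _⟩
  have hz : z ≠ 0 := by
    intro hc
    have := congrArg Subtype.val hc
    exact (div_ne_zero hx0 hy0) this
  haveI : Finite Fˣ := inferInstance
  have h4 : IsOfFinOrder (Units.mk0 z hz) := isOfFinOrder_of_finite _
  obtain ⟨n, hn, h5⟩ := isOfFinOrder_iff_pow_eq_one.mp h4
  refine ⟨n, hn, ?_⟩
  have h6 : z ^ n = 1 := by
    have := congrArg Units.val h5
    simpa using this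
  have h7 : (a x / a y) ^ n = 1 := by
    have := congrArg Subtype.val h6
    simpa using this
  rw [div_pow, div_eq_one_iff_eq (pow_ne_zero _ hy0)] at h7
  exact h7

end Vale.Agent.P201
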